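import Vale.Agent.Lib.P154K.Inv
import Vale.Agent.Lib.P154GW.Poisson

/-!
# The data of the Lagrange argument from the polynomial checks
-/

namespace Vale.Agent.Lib.P154K

open Vale.Agent.Lib.P154 Vale.Agent.Lib.P154GW

/-- `P ≤ A` on the simplex, in terms of the power sums. -/
lemma p3T_le {a : Tp} (ha : InSx 1 a) : 3 * p3T a ≤ p2T a := by
  obtain ⟨x, y, z⟩ := a
  have hz := ZS_z ha.zs
  have h1 := ha.hx
  have h2 := ha.hy
  have h3 := ha.hz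
  simp only [p2T, p3T] at *
  subst hz
  have hp : 0 ≤ 1 / 3 + x := by linarith
  have hq : 0 ≤ 1 / 3 + y := by linarith
  have hr : 0 ≤ 1 / 3 + (-x - y) := by linarith
  have e : x ^ 2 + y ^ 2 + (-x - y) ^ 2 - 3 * (x ^ 3 + y ^ 3 + (-x - y) ^ 3) =
      (1 / 3 + x) * (y - (-x - y)) ^ 2 + (1 / 3 + y) * ((-x - y) - x) ^ 2 +
        (1 / 3 + (-x - y)) * (x - y) ^ 2 := by ring
  have : 0 ≤ (1 / 3 + x) * (y - (-x - y)) ^ 2 + (1 / 3 + y) * ((-x - y) - x) ^ 2 +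
        (1 / 3 + (-x - y)) * (x - y) ^ 2 := by positivity
  linarith

/-- The multiplier of the third Lagrange term. -/
noncomputable def Hfn (h : ℝ) (a : Tp) : ℝ :=
  h * ((1 - 3 / 2 * p2T a) * (3 / 2 * p2T a - 9 / 2 * p3T a))

lemma Hfn_nonneg {h : ℝ} (hh : 0 ≤ h) {a : Tp} (ha : InSx 1 a) : 0 ≤ Hfn h a := by
  have h1 := p2T_le_of_inSx ha
  have h2 := p3T_le ha
  apply mul_nonneg hh
  apply mul_nonneg <;> linarith

/-- The data of the Lagrange argument from the polynomial checks. -/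
theorem lagData_of {ψ Y G H : Tp → ℝ} {t κ ρ lb : ℝ} {W n m W' n' m' e nR mR p q : ℕ}
    {L : List (ℕ × ℕ × ℤ)} {R : List (ℕ × ℕ × ℕ × ℕ × ℤ)} (hρ : 0 < ρ) (hp : 0 < p) (hq : 0 < q)
    (hcP : check W n m (mkF (chamber 1 1) (chamber p q) L e R nR mR) = true)
    (hcM : check W' n' m' (mkF (chamber 1 1) (chamberR p q) L e R nR mR) = true)
    (hLne : L ≠ []) (hRne : R ≠ [])
    (hL : ∀ t ∈ L, 2 * t.1 + 3 * t.2.1 ≤ e + 1)
    (hR : ∀ t ∈ R, 2 * t.1 + 3 * t.2.1 ≤ nR ∧ 2 * t.2.2.1 + 3 * t.2.2.2.1 ≤ mR)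
    (hψ : ∀ c, potL L c = ρ * ψ c)
    (hrhs : ∀ a b, rhsL R a b = ρ * (ψ a + Y b - t * (p2T a * p2T b) - G b * p3T a - H a * p3T b -
      κ * (p3T a * p3T b)))
    (hG : ∀ b, InSx lb b → 0 ≤ G b) (hH : ∀ a, InSx 1 a → 0 ≤ H a) (hκ : 0 ≤ κ) (ht : 0 ≤ t)
    (hlb0 : 0 ≤ lb) (hlb : lb < 1) (hlbq : lb ≤ (p : ℝ) / q) (hzero : ψ ⟨0, 0, 0⟩ = 0) :
    LagData ψ Y G H lb t κ where
  merge a b ha hb := by
    have key := avg6_le_all hp hq hcP hcM hLne hRne hL hR hlb0 hlb hlbq a b ha hb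
    rw [hrhs] at key
    simp only [avg6, hψ] at key ⊢
    have e1 : ((1 + 3 * sF a b) * (ρ * ψ (wF a b)) + (1 + 3 * sF a b.r1) * (ρ * ψ (wF a b.r1)) +
        (1 + 3 * sF a b.r2) * (ρ * ψ (wF a b.r2)) + (1 + 3 * sF a b.r3) * (ρ * ψ (wF a b.r3)) +
        (1 + 3 * sF a b.r4) * (ρ * ψ (wF a b.r4)) + (1 + 3 * sF a b.r5) * (ρ * ψ (wF a b.r5))) / 6 =
        ρ * (((1 + 3 * sF a b) * ψ (wF a b) + (1 + 3 * sF a b.r1) * ψ (wF a b.r1) +
        (1 + 3 * sF a b.r2) * ψ (wF a b.r2) + (1 + 3 * sF a b.r3) * ψ (wF a b.r3) +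
        (1 + 3 * sF a b.r4) * ψ (wF a b.r4) + (1 + 3 * sF a b.r5) * ψ (wF a b.r5)) / 6) := by ring
    rw [e1] at key
    exact le_of_mul_le_mul_left key hρ
  inv a b ha hb := inv_ineq hlb0 hlb a b ha hb
  G0 := hG
  H0 := hH
  κ0 := hκ
  t0 := ht
  lb0 := hlb0
  lb1 := hlb
  zero := hzero

/-- A potential of the usual form is bounded on the simplex. -/
lemma psiT_le (den : ℕ) (hden : 0 < den) (p : Pot) (ha' : (p.a : ℝ) / den ≤ 1 / 2)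
    (hb : |(p.b : ℝ) / den| ≤ 2) (hc' : (p.c : ℝ) / den ≤ 6)
    {c : Tp} (hc : InSx 1 c) : psiT den p c ≤ 2 := by
  have h1 := p2T_le_of_inSx hc
  have h0 := p2T_nonneg c
  have h2 := sq_cubic_le hc.zs
  set P := p2T c
  set Q := c.x ^ 3 + c.y ^ 3 + c.z ^ 3
  have hP3 : P ^ 3 ≤ (2 / 3) ^ 3 := pow_le_pow_left₀ h0 h1 3
  have hQ2 : Q ^ 2 ≤ 4 / 81 := by nlinarith
  have hQ : |Q| ≤ 2 / 9 := by
    rw [show (2 / 9 : ℝ) = Real.sqrt (4 / 81) by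
      rw [show (4 / 81 : ℝ) = (2 / 9) ^ 2 by norm_num]; exact (Real.sqrt_sq (by norm_num)).symm]
    exact Real.abs_le_sqrt hQ2
  have hPQ : |P * Q| ≤ 2 / 3 * (2 / 9) := by
    rw [abs_mul, abs_of_nonneg h0]
    exact mul_le_mul h1 hQ (abs_nonneg _) (by norm_num)
  have hbPQ : (p.b : ℝ) / den * (P * Q) ≤ 2 * (2 / 3 * (2 / 9)) := by
    calc (p.b : ℝ) / den * (P * Q) ≤ |(p.b : ℝ) / den * (P * Q)| := le_abs_self _
      _ = |(p.b : ℝ) / den| * |P * Q| := abs_mul _ _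
      _ ≤ 2 * (2 / 3 * (2 / 9)) := mul_le_mul hb hPQ (abs_nonneg _) (by norm_num)
  have haP : (p.a : ℝ) / den * P ^ 2 ≤ 1 / 2 * (2 / 3) ^ 2 := by
    apply mul_le_mul ha' _ (sq_nonneg _) (by norm_num)
    exact pow_le_pow_left₀ h0 h1 2
  have hcQ : (p.c : ℝ) / den * Q ^ 2 ≤ 6 * (4 / 81) :=
    mul_le_mul hc' hQ2 (sq_nonneg _) (by norm_num)
  have hsum : (p.a : ℝ) / den * P ^ 2 + (p.b : ℝ) / den * (P * Q) + (p.c : ℝ) / den * Q ^ 2 ≤ 4 / 3 := by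
    norm_num at haP hbPQ hcQ ⊢
    linarith
  have e' : psiT den p c = P + (p.a : ℝ) / den * P ^ 2 + (p.b : ℝ) / den * (P * Q) + (p.c : ℝ) / den * Q ^ 2 := rfl
  rw [e']
  linarith

/-- **Nonreconstruction on Poisson trees from one potential and its two polynomial checks.**
For every `lam ≤ p / q` and `d * lam ^ 2 ≤ 1`. -/
theorem poisson_of_checks {den W n m W' n' m' e nR mR p q : ℕ} {P : Pot} {h0' g0 t κ : ℝ}
    {L : List (ℕ × ℕ × ℤ)} {R : List (ℕ × ℕ × ℕ × ℕ × ℤ)} (hden : 0 < den) (hp : 0 < p) (hpq : p < q)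
    (hcP : check W n m (mkF (chamber 1 1) (chamber p q) L e R nR mR) = true)
    (hcM : check W' n' m' (mkF (chamber 1 1) (chamberR p q) L e R nR mR) = true)
    (hLne : L ≠ []) (hRne : R ≠ [])
    (hL : ∀ t ∈ L, 2 * t.1 + 3 * t.2.1 ≤ e + 1)
    (hR : ∀ t ∈ R, 2 * t.1 + 3 * t.2.1 ≤ nR ∧ 2 * t.2.2.1 + 3 * t.2.2.2.1 ≤ mR)
    (hψ : ∀ c, potL L c = den * psiT den P c)
    (hrhs : ∀ a b, rhsL R a b = den * (psiT den P a + psiT den P b - t * (p2T a * p2T b) -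
      (g0 * p2T b) * p3T a - Hfn h0' a * p3T b - κ * (p3T a * p3T b)))
    (hg : 0 ≤ g0) (hh : 0 ≤ h0') (hκ : 0 ≤ κ) (ht : 0 < t)
    (h1 : 0 ≤ (P.a : ℝ)) (h2 : 0 ≤ (P.c : ℝ)) (h3 : 9 * (P.b : ℝ) ^ 2 ≤ 32 * P.a * P.c)
    (ha' : (P.a : ℝ) / den ≤ 1 / 2) (hb : |(P.b : ℝ) / den| ≤ 2) (hc' : (P.c : ℝ) / den ≤ 6)
    {d lam : ℝ} (hd0 : 0 < d) (hl0 : 0 ≤ lam) (hl : lam ≤ (p : ℝ) / q) (hd : d * lam ^ 2 ≤ 1) :
    Filter.Tendsto (advantage (poisson d) 3 lam) Filter.atTop (nhds 0) := by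
  have hq : 0 < q := by omega
  have hp' : (0 : ℝ) < p := by exact_mod_cast hp
  have hq' : (0 : ℝ) < q := by exact_mod_cast hq
  have hpq' : (p : ℝ) / q < 1 := by
    rw [div_lt_one hq']
    exact_mod_cast hpq
  have hden' : (0 : ℝ) < den := by exact_mod_cast hden
  have hD : LagData (psiT den P) (psiT den P) (fun b => g0 * p2T b) (Hfn h0') ((p : ℝ) / q) t κ :=
    lagData_of (ρ := den) hden' hp hq hcP hcM hLne hRne hL hR hψ hrhs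
      (fun b _ => mul_nonneg hg (p2T_nonneg b)) (fun a ha => Hfn_nonneg hh ha) hκ ht.le
      (by positivity) hpq' le_rfl (psiT_zero _ _)
  refine tendsto_advantageL (C := 2) (poisson_nonneg hd0.le) (poisson_hasSum d) (poisson_mean d)
    (poisson_two_pos hd0) hD ht ?_ ?_ ?_ hl0 hl hd
  · intro c s hs0 hs1
    exact ray_mono hden h1 h2 h3 c hs0 (by linarith)
  · intro c _
    refine ge_p2 hden h1 h2 ?_ c
    by_cases hzero : (P.a : ℝ) * P.c = 0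
    · have : (P.b : ℝ) ^ 2 ≤ 0 := by nlinarith
      nlinarith
    · have hpos : 0 ≤ (P.a : ℝ) * P.c := mul_nonneg h1 h2
      nlinarith
  · intro c hc
    exact psiT_le den hden P ha' hb hc' hc

end Vale.Agent.Lib.P154K
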