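import Vale.Agent.Lib.P154K.Form

/-!
# From two sorted triples to all triples

The inequality is checked for `a` sorted and `b` sorted or reflected.  The symmetries of the
problem give all pairs `a`, `b`.
-/

namespace Vale.Agent.Lib.P154K

open Vale.Agent.Lib.P154 Vale.Agent.Lib.P154GW Tp

lemma p2T_r1 (c : Tp) : p2T c.r1 = p2T c := by simp only [p2T, r1]; ring
lemma p2T_r2 (c : Tp) : p2T c.r2 = p2T c := by simp only [p2T, r2]; ring
lemma p2T_r3 (c : Tp) : p2T c.r3 = p2T c := by simp only [p2T, r3]; ring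
lemma p2T_r4 (c : Tp) : p2T c.r4 = p2T c := by simp only [p2T, r4]; ring
lemma p3T_r1 (c : Tp) : p3T c.r1 = p3T c := by simp only [p3T, r1]; ring
lemma p3T_r2 (c : Tp) : p3T c.r2 = p3T c := by simp only [p3T, r2]; ring
lemma p3T_r3 (c : Tp) : p3T c.r3 = p3T c := by simp only [p3T, r3]; ring
lemma p3T_r4 (c : Tp) : p3T c.r4 = p3T c := by simp only [p3T, r4]; ring

lemma potL_r3 (L : List (ℕ × ℕ × ℤ)) (c : Tp) : potL L c.r3 = potL L c := by
  simp only [potL, p2T_r3, p3T_r3]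
lemma potL_r4 (L : List (ℕ × ℕ × ℤ)) (c : Tp) : potL L c.r4 = potL L c := by
  simp only [potL, p2T_r4, p3T_r4]

lemma rhsL_r1 (R : List (ℕ × ℕ × ℕ × ℕ × ℤ)) (a b : Tp) : rhsL R a b.r1 = rhsL R a b := by
  simp only [rhsL, p2T_r1, p3T_r1]
lemma rhsL_r2 (R : List (ℕ × ℕ × ℕ × ℕ × ℤ)) (a b : Tp) : rhsL R a b.r2 = rhsL R a b := by
  simp only [rhsL, p2T_r2, p3T_r2]
lemma rhsL_r3 (R : List (ℕ × ℕ × ℕ × ℕ × ℤ)) (a b : Tp) : rhsL R a.r3 b.r3 = rhsL R a b := by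
  simp only [rhsL, p2T_r3, p3T_r3]
lemma rhsL_r4 (R : List (ℕ × ℕ × ℕ × ℕ × ℤ)) (a b : Tp) : rhsL R a.r4 b.r4 = rhsL R a b := by
  simp only [rhsL, p2T_r4, p3T_r4]
lemma rhsL_b3 (R : List (ℕ × ℕ × ℕ × ℕ × ℤ)) (a b : Tp) : rhsL R a b.r3 = rhsL R a b := by
  simp only [rhsL, p2T_r3, p3T_r3]

lemma sF_r3 (a b : Tp) : sF a.r3 b.r3 = sF a b := by simp only [sF, r3]; ring
lemma sF_r4 (a b : Tp) : sF a.r4 b.r4 = sF a b := by simp only [sF, r4]; ring

lemma cF_r3 (a b : Tp) : cF a.r3 b.r3 = (cF a b).r3 := by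
  simp only [cF, r3, sF_r3]
  simp only [sF]
  ext <;> simp only <;> ring
lemma cF_r4 (a b : Tp) : cF a.r4 b.r4 = (cF a b).r4 := by
  simp only [cF, r4, sF_r4]
  simp only [sF]
  ext <;> simp only <;> ring

lemma wF_r3 (a b : Tp) : wF a.r3 b.r3 = (wF a b).r3 := by
  unfold wF
  rw [cF_r3, sF_r3]
  rfl
lemma wF_r4 (a b : Tp) : wF a.r4 b.r4 = (wF a b).r4 := by
  unfold wF
  rw [cF_r4, sF_r4]
  rfl

/-- The rotations of `b` do not change the sum over rotations. -/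
lemma cyc_r1 (L : List (ℕ × ℕ × ℤ)) (a b : Tp) : cyc L a b.r1 = cyc L a b := by
  have e1 : b.r1.r1 = b.r2 := rfl
  have e2 : b.r1.r2 = b := rfl
  simp only [cyc, e1, e2]
  ring

lemma cyc_r2 (L : List (ℕ × ℕ × ℤ)) (a b : Tp) : cyc L a b.r2 = cyc L a b := by
  have e1 : b.r2.r1 = b := rfl
  have e2 : b.r2.r2 = b.r1 := rfl
  simp only [cyc, e1, e2]
  ring

lemma cyc_r3 (L : List (ℕ × ℕ × ℤ)) (a b : Tp) : cyc L a.r3 b.r3 = cyc L a b := by
  have e1 : b.r3.r1 = b.r2.r3 := rfl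
  have e2 : b.r3.r2 = b.r1.r3 := rfl
  simp only [cyc, e1, e2, sF_r3, wF_r3, potL_r3]
  ring

lemma cyc_r4 (L : List (ℕ × ℕ × ℤ)) (a b : Tp) : cyc L a.r4 b.r4 = cyc L a b := by
  have e1 : b.r4.r1 = b.r2.r4 := rfl
  have e2 : b.r4.r2 = b.r1.r4 := rfl
  simp only [cyc, e1, e2, sF_r4, wF_r4, potL_r4]
  ring

lemma _root_.Vale.Agent.Lib.P154.InSx.r1' {l : ℝ} {c : Tp} (h : InSx l c) : InSx l c.r1 := Orb.inSx (by simp [Orb]) h
lemma _root_.Vale.Agent.Lib.P154.InSx.r2' {l : ℝ} {c : Tp} (h : InSx l c) : InSx l c.r2 := Orb.inSx (by simp [Orb]) h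
lemma _root_.Vale.Agent.Lib.P154.InSx.r3' {l : ℝ} {c : Tp} (h : InSx l c) : InSx l c.r3 := Orb.inSx (by simp [Orb]) h
lemma _root_.Vale.Agent.Lib.P154.InSx.r4' {l : ℝ} {c : Tp} (h : InSx l c) : InSx l c.r4 := Orb.inSx (by simp [Orb]) h
lemma _root_.Vale.Agent.Lib.P154.InSx.r5' {l : ℝ} {c : Tp} (h : InSx l c) : InSx l c.r5 := Orb.inSx (by simp [Orb]) h

/-- A sorted triple. -/
def Srt (c : Tp) : Prop := c.y ≤ c.x ∧ c.z ≤ c.y

variable {L : List (ℕ × ℕ × ℤ)} {R : List (ℕ × ℕ × ℕ × ℕ × ℤ)} {la lb : ℝ}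

/-- From `b` sorted or reflected to all `b`. -/
lemma all_b (a : Tp) (hP : ∀ s, InSx lb s → Srt s → cyc L a s ≤ rhsL R a s)
    (hM : ∀ s, InSx lb s → Srt s → cyc L a s.r3 ≤ rhsL R a s) (b : Tp) (hb : InSx lb b) :
    cyc L a b ≤ rhsL R a b := by
  rcases le_total b.y b.x with h1 | h1 <;> rcases le_total b.z b.y with h2 | h2 <;>
    rcases le_total b.z b.x with h3 | h3
  · exact hP b hb ⟨h1, h2⟩
  · exact hP b hb ⟨h1, h2⟩
  · -- z between: x ≥ z ≥ y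
    have := hM b.r3 hb.r3' ⟨h3, h2⟩
    have e : b.r3.r3 = b := rfl
    rwa [e, rhsL_b3] at this
  · -- z ≥ x ≥ y
    have := hP b.r2 hb.r2' ⟨h3, h1⟩
    rwa [cyc_r2, rhsL_r2] at this
  · -- y ≥ x ≥ z
    have := hM b.r4 hb.r4' ⟨h1, h3⟩
    have e : b.r4.r3 = b.r1 := rfl
    have e' : rhsL R a b.r4 = rhsL R a b := by simp only [rhsL, p2T_r4, p3T_r4]
    rwa [e, cyc_r1, e'] at this
  · -- y ≥ z ≥ x
    have := hP b.r1 hb.r1' ⟨h2, h3⟩
    rwa [cyc_r1, rhsL_r1] at this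
  · have hxy : b.x = b.y := by linarith
    have hyz : b.y = b.z := by linarith
    have := hP b hb ⟨by linarith, by linarith⟩
    exact this
  · -- z ≥ y ≥ x
    have := hM b.r5 hb.r5' ⟨h2, h1⟩
    have e : b.r5.r3 = b.r2 := rfl
    have e' : rhsL R a b.r5 = rhsL R a b := by
      have : b.r5 = b.r3.r1 := rfl
      rw [this, rhsL_r1, rhsL_b3]
    rwa [e, cyc_r2, e'] at this

/-- From `a` sorted to all `a`. -/
lemma all_a (hS : ∀ a b, InSx la a → Srt a → InSx lb b → cyc L a b ≤ rhsL R a b) (a b : Tp)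
    (ha : InSx la a) (hb : InSx lb b) : cyc L a b ≤ rhsL R a b := by
  have s3 : ∀ a b, InSx la a → InSx lb b → cyc L a.r3 b.r3 ≤ rhsL R a.r3 b.r3 →
      cyc L a b ≤ rhsL R a b := fun a b _ _ h => by rwa [cyc_r3, rhsL_r3] at h
  have s4 : ∀ a b, InSx la a → InSx lb b → cyc L a.r4 b.r4 ≤ rhsL R a.r4 b.r4 →
      cyc L a b ≤ rhsL R a b := fun a b _ _ h => by rwa [cyc_r4, rhsL_r4] at h
  rcases le_total a.y a.x with h1 | h1 <;> rcases le_total a.z a.y with h2 | h2 <;>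
    rcases le_total a.z a.x with h3 | h3
  · exact hS a b ha ⟨h1, h2⟩ hb
  · exact hS a b ha ⟨h1, h2⟩ hb
  · -- x ≥ z ≥ y : r3 is sorted
    exact s3 a b ha hb (hS _ _ ha.r3' ⟨h3, h2⟩ hb.r3')
  · -- z ≥ x ≥ y
    refine s3 a b ha hb (s4 _ _ ha.r3' hb.r3' (hS _ _ ha.r3'.r4' ?_ hb.r3'.r4'))
    exact ⟨h3, h1⟩
  · -- y ≥ x ≥ z
    exact s4 a b ha hb (hS _ _ ha.r4' ⟨h1, h3⟩ hb.r4')
  · -- y ≥ z ≥ x
    refine s4 a b ha hb (s3 _ _ ha.r4' hb.r4' (hS _ _ ha.r4'.r3' ?_ hb.r4'.r3'))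
    exact ⟨h2, h3⟩
  · have := hS a b ha ⟨by linarith, by linarith⟩ hb
    exact this
  · -- z ≥ y ≥ x
    refine s3 a b ha hb (s4 _ _ ha.r3' hb.r3' (s3 _ _ ha.r3'.r4' hb.r3'.r4'
      (hS _ _ ha.r3'.r4'.r3' ?_ hb.r3'.r4'.r3')))
    exact ⟨h2, h1⟩

/-- The average over the six rearrangements from the two sums over rotations. -/
lemma avg6_cyc (L : List (ℕ × ℕ × ℤ)) (a b : Tp) :
    avg6 (fun b' => (1 + 3 * sF a b') * potL L (wF a b')) b = (cyc L a b + cyc L a b.r3) / 2 := by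
  have e1 : b.r3.r1 = b.r5 := rfl
  have e2 : b.r3.r2 = b.r4 := rfl
  simp only [avg6, cyc, e1, e2]
  ring

/-- The sorted triples on the chamber: barycentric coordinates. -/
def chamber (p q : ℕ) : Trg := ⟨0, 0, 0, p, p, -(2 * p), 4 * p, -(2 * p), -(2 * p), 6 * q⟩

/-- The reflected chamber. -/
def chamberR (p q : ℕ) : Trg := ⟨0, 0, 0, p, -(2 * p), p, 4 * p, -(2 * p), -(2 * p), 6 * q⟩

lemma exA_val (T : Trg) (r : Fin 6 → ℝ) (hD : 0 < T.den) :
    T.exA.val r = scale T.den (T.pt (r 0) (r 1) (r 2)) := by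
  have h : (T.den : ℝ) ≠ 0 := by positivity
  apply Tp.ext
  · simp only [E3.val, Trg.exA, linA, Ex.val, scale, Trg.pt]; field_simp
  · simp only [E3.val, Trg.exA, linA, Ex.val, scale, Trg.pt]; field_simp
  · simp only [E3.val, Trg.exA, linA, Ex.val, scale, Trg.pt]; field_simp

lemma exB_val (T : Trg) (r : Fin 6 → ℝ) (hD : 0 < T.den) :
    T.exB.val r = scale T.den (T.pt (r 3) (r 4) (r 5)) := by
  have h : (T.den : ℝ) ≠ 0 := by positivity
  apply Tp.ext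
  · simp only [E3.val, Trg.exB, linB, Ex.val, scale, Trg.pt]; field_simp
  · simp only [E3.val, Trg.exB, linB, Ex.val, scale, Trg.pt]; field_simp
  · simp only [E3.val, Trg.exB, linB, Ex.val, scale, Trg.pt]; field_simp

/-- The barycentric coordinates of a sorted triple. -/
lemma chamber_coord {p q : ℕ} (hp : 0 < p) (hq : 0 < q) {c : Tp}
    (hc : InSx ((p : ℝ) / q) c) (hs : Srt c) :
    ∃ u v w : ℝ, 0 ≤ u ∧ 0 ≤ v ∧ 0 ≤ w ∧ u + v + w = 1 ∧ c = (chamber p q).pt u v w := by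
  have hp' : (0 : ℝ) < p := by exact_mod_cast hp
  have hq' : (0 : ℝ) < q := by exact_mod_cast hq
  set l : ℝ := (p : ℝ) / q with hl
  have hl0 : 0 < l := by positivity
  have hz := ZS_z hc.zs
  have h3 := hc.hz
  obtain ⟨s1, s2⟩ := hs
  refine ⟨1 + 3 * c.z / l, 2 * (c.y - c.z) / l, (c.x - c.y) / l, ?_, ?_, ?_, ?_, ?_⟩
  · have : 0 ≤ (l + 3 * c.z) / l := div_nonneg (by linarith) hl0.le
    have e : (l + 3 * c.z) / l = 1 + 3 * c.z / l := by field_simp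
    rwa [e] at this
  · exact div_nonneg (by linarith) hl0.le
  · exact div_nonneg (by linarith) hl0.le
  · field_simp
    rw [hz]
    ring
  · have hqne : (q : ℝ) ≠ 0 := ne_of_gt hq'
    have hpne : (p : ℝ) ≠ 0 := ne_of_gt hp'
    have hln : l ≠ 0 := ne_of_gt hl0
    apply Tp.ext
    · simp only [Trg.pt, chamber]
      push_cast
      rw [hl]
      field_simp
      rw [hz]
      ring
    · simp only [Trg.pt, chamber]
      push_cast
      rw [hl]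
      field_simp
      rw [hz]
      ring
    · simp only [Trg.pt, chamber]
      push_cast
      rw [hl]
      field_simp
      rw [hz]
      ring

lemma chamberR_pt (p q : ℕ) (u v w : ℝ) : (chamberR p q).pt u v w = ((chamber p q).pt u v w).r3 := by
  simp only [Trg.pt, chamber, chamberR, r3]

/-- The point in six barycentric coordinates. -/
def mkR (u v w u' v' w' : ℝ) : Fin 6 → ℝ := ![u, v, w, u', v', w']

lemma sF_pos {a b : Tp} {lb : ℝ} (ha : InSx 1 a) (hb : InSx lb b) (hlb0 : 0 ≤ lb) (hlb : lb < 1) :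
    0 < 1 + 3 * sF a b := by
  have := (sF_range ha hb zero_le_one hlb0).1
  have h2 : 1 * lb < 1 := by linarith
  linarith

/-- **The merge inequality for all pairs**, from the checks on the sorted triples. -/
theorem cyc_le_all {W n m W' n' m' : ℕ} {e nR mR : ℕ} {p q : ℕ} (hp : 0 < p) (hq : 0 < q)
    (hcP : check W n m (mkF (chamber 1 1) (chamber p q) L e R nR mR) = true)
    (hcM : check W' n' m' (mkF (chamber 1 1) (chamberR p q) L e R nR mR) = true)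
    (hLne : L ≠ []) (hRne : R ≠ [])
    (hL : ∀ t ∈ L, 2 * t.1 + 3 * t.2.1 ≤ e + 1)
    (hR : ∀ t ∈ R, 2 * t.1 + 3 * t.2.1 ≤ nR ∧ 2 * t.2.2.1 + 3 * t.2.2.2.1 ≤ mR)
    {lb : ℝ} (hlb0 : 0 ≤ lb) (hlb : lb < 1) (hlbq : lb ≤ (p : ℝ) / q)
    (a b : Tp) (ha : InSx 1 a) (hb : InSx lb b) : cyc L a b ≤ rhsL R a b := by
  have hDa : 0 < (chamber 1 1).den := by simp [chamber]
  have hDb : 0 < (chamber p q).den := by simp [chamber]; exact hq
  have hDc : 0 < (chamberR p q).den := by simp [chamberR]; exact hq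
  refine all_a (la := 1) (lb := lb) (fun a b ha hsa hb => ?_) a b ha hb
  obtain ⟨u, v, w, hu, hv, hw, hs, rfl⟩ := chamber_coord (p := 1) (q := 1) (by norm_num) (by norm_num)
    (by simpa using ha) hsa
  refine all_b (lb := lb) _ (fun s hs' hss => ?_) (fun s hs' hss => ?_) b hb
  · obtain ⟨u', v', w', hu', hv', hw', hs2, rfl⟩ := chamber_coord hp hq (hs'.mono hlbq) hss
    have hr : ∀ i, 0 ≤ mkR u v w u' v' w' i := by
      intro i; fin_cases i <;> simp [mkR] <;> assumption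
    refine cyc_le_of_check hcP hLne hRne hL hR hDa hDb hr ?_
      (sF_pos ha hs' hlb0 hlb) (sF_pos ha hs'.r1' hlb0 hlb) (sF_pos ha hs'.r2' hlb0 hlb)
    refine ⟨by simpa [mkR] using hs, by simpa [mkR] using hs2, ?_, ?_⟩
    · rw [exA_val _ _ hDa]; rfl
    · rw [exB_val _ _ hDb]; rfl
  · obtain ⟨u', v', w', hu', hv', hw', hs2, rfl⟩ := chamber_coord hp hq (hs'.mono hlbq) hss
    have hr : ∀ i, 0 ≤ mkR u v w u' v' w' i := by
      intro i; fin_cases i <;> simp [mkR] <;> assumption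
    have hs3 := hs'.r3'
    have key := cyc_le_of_check (a := (chamber 1 1).pt u v w)
      (b := ((chamber p q).pt u' v' w').r3) hcM hLne hRne hL hR hDa hDc hr ?_
      (sF_pos ha hs3 hlb0 hlb) (sF_pos ha hs3.r1' hlb0 hlb) (sF_pos ha hs3.r2' hlb0 hlb)
    · rwa [rhsL_b3] at key
    · refine ⟨by simpa [mkR] using hs, by simpa [mkR] using hs2, ?_, ?_⟩
      · rw [exA_val _ _ hDa]; rfl
      · rw [exB_val _ _ hDc, ← chamberR_pt]; rfl

/-- **The merge inequality with the average over all rearrangements.** -/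
theorem avg6_le_all {W n m W' n' m' : ℕ} {e nR mR : ℕ} {p q : ℕ} (hp : 0 < p) (hq : 0 < q)
    (hcP : check W n m (mkF (chamber 1 1) (chamber p q) L e R nR mR) = true)
    (hcM : check W' n' m' (mkF (chamber 1 1) (chamberR p q) L e R nR mR) = true)
    (hLne : L ≠ []) (hRne : R ≠ [])
    (hL : ∀ t ∈ L, 2 * t.1 + 3 * t.2.1 ≤ e + 1)
    (hR : ∀ t ∈ R, 2 * t.1 + 3 * t.2.1 ≤ nR ∧ 2 * t.2.2.1 + 3 * t.2.2.2.1 ≤ mR)
    {lb : ℝ} (hlb0 : 0 ≤ lb) (hlb : lb < 1) (hlbq : lb ≤ (p : ℝ) / q)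
    (a b : Tp) (ha : InSx 1 a) (hb : InSx lb b) :
    avg6 (fun b' => (1 + 3 * sF a b') * potL L (wF a b')) b ≤ rhsL R a b := by
  rw [avg6_cyc]
  have h1 := cyc_le_all hp hq hcP hcM hLne hRne hL hR hlb0 hlb hlbq a b ha hb
  have h2 := cyc_le_all hp hq hcP hcM hLne hRne hL hR hlb0 hlb hlbq a b.r3 ha hb.r3'
  rw [rhsL_b3] at h2
  linarith

end Vale.Agent.Lib.P154K
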