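import Vale.Agent.Lib.P154GW.Lag
import Vale.Agent.Lib.P154K.Kron

/-!
# The merge inequality on a pair of triangles, with all denominators cleared

The rational function `(1 + 3 s) ψ(w)` is summed over the three rotations of `b`.  All denominators
are cleared by a power of the product of the three normalizations, and what remains is a bihomogeneous
polynomial in the barycentric coordinates on the two triangles.
-/

namespace Vale.Agent.Lib.P154K

open Vale.Agent.Lib.P154 Vale.Agent.Lib.P154GW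

/-- A triangle with integer vertices over a common denominator. -/
structure Trg where
  x0 : Int
  y0 : Int
  z0 : Int
  x1 : Int
  y1 : Int
  z1 : Int
  x2 : Int
  y2 : Int
  z2 : Int
  den : Nat

/-- The point of a triangle with the given barycentric coordinates. -/
noncomputable def Trg.pt (T : Trg) (u v w : ℝ) : Tp :=
  ⟨((T.x0 : ℝ) * u + T.x1 * v + T.x2 * w) / T.den, ((T.y0 : ℝ) * u + T.y1 * v + T.y2 * w) / T.den,
    ((T.z0 : ℝ) * u + T.z1 * v + T.z2 * w) / T.den⟩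

/-- Three expressions. -/
structure E3 where
  x : Ex
  y : Ex
  z : Ex

/-- The sum of the first three variables. -/
def sA : Ex := .add (.add (.v 0) (.v 1)) (.v 2)
/-- The sum of the last three variables. -/
def sB : Ex := .add (.add (.v 3) (.v 4)) (.v 5)

/-- A linear form in the first three variables. -/
def linA (p q r : Int) : Ex := .add (.add (.mul (.c p) (.v 0)) (.mul (.c q) (.v 1))) (.mul (.c r) (.v 2))
/-- A linear form in the last three variables. -/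
def linB (p q r : Int) : Ex := .add (.add (.mul (.c p) (.v 3)) (.mul (.c q) (.v 4))) (.mul (.c r) (.v 5))

/-- The numerators of the coordinates of a point of a triangle, first group of variables. -/
def Trg.exA (T : Trg) : E3 := ⟨linA T.x0 T.x1 T.x2, linA T.y0 T.y1 T.y2, linA T.z0 T.z1 T.z2⟩
/-- The numerators of the coordinates of a point of a triangle, last group of variables. -/
def Trg.exB (T : Trg) : E3 := ⟨linB T.x0 T.x1 T.x2, linB T.y0 T.y1 T.y2, linB T.z0 T.z1 T.z2⟩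

/-- First rotation. -/
def E3.r1 (B : E3) : E3 := ⟨B.y, B.z, B.x⟩
/-- Second rotation. -/
def E3.r2 (B : E3) : E3 := ⟨B.z, B.x, B.y⟩

/-- The numerator of `s`. -/
def sE (A B : E3) : Ex := .add (.add (.mul A.x B.x) (.mul A.y B.y)) (.mul A.z B.z)

/-- The numerator of `1 + 3 s`. -/
def nE (Da Db : Int) (A B : E3) : Ex :=
  .add (.mul (.c (Da * Db)) (.mul sA sB)) (.mul (.c 3) (sE A B))

/-- One numerator of the merged message. -/
def cE1 (Da Db : Int) (s ai bi : Ex) : Ex :=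
  .sub (.add (.add (.mul (.mul (.c Db) ai) sB) (.mul (.mul (.c Da) bi) sA)) (.mul (.c 3) (.mul ai bi))) s

/-- The numerators of the merged message. -/
def cE (Da Db : Int) (A B : E3) : E3 :=
  ⟨cE1 Da Db (sE A B) A.x B.x, cE1 Da Db (sE A B) A.y B.y, cE1 Da Db (sE A B) A.z B.z⟩

/-- The second power sum. -/
def p2E (C : E3) : Ex := .add (.add (.pow C.x 2) (.pow C.y 2)) (.pow C.z 2)
/-- The third power sum. -/
def p3E (C : E3) : Ex := .add (.add (.pow C.x 3) (.pow C.y 3)) (.pow C.z 3)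

/-- The sum of a list of expressions. -/
def sumE : List Ex → Ex
  | [] => .c 0
  | [x] => x
  | x :: y :: l => .add x (sumE (y :: l))

/-- Real potential: integer combination of products of powers of `p2T, p3T`. -/
noncomputable def potL (L : List (ℕ × ℕ × ℤ)) (c : Tp) : ℝ :=
  (L.map fun t => (t.2.2 : ℝ) * (p2T c ^ t.1 * p3T c ^ t.2.1)).sum

/-- Real right side. -/
noncomputable def rhsL (R : List (ℕ × ℕ × ℕ × ℕ × ℤ)) (a b : Tp) : ℝ :=
  (R.map fun t => (t.2.2.2.2 : ℝ) *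
    (p2T a ^ t.1 * p3T a ^ t.2.1 * (p2T b ^ t.2.2.1 * p3T b ^ t.2.2.2.1))).sum

/-- The numerator of the terms for one rotation. -/
def tE (L : List (ℕ × ℕ × ℤ)) (e : ℕ) (P2 P3 N : Ex) : Ex :=
  sumE (L.map fun t => .mul (.c t.2.2) (.mul (.mul (.pow P2 t.1) (.pow P3 t.2.1))
    (.pow N (e + 1 - (2 * t.1 + 3 * t.2.1)))))

/-- The numerator of the right side. -/
def rE (R : List (ℕ × ℕ × ℕ × ℕ × ℤ)) (nR mR : ℕ) (Da Db : Int) (A B : E3) : Ex :=
  sumE (R.map fun t => .mul (.c t.2.2.2.2)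
    (.mul (.mul (.mul (.pow (p2E A) t.1) (.pow (p3E A) t.2.1))
        (.pow (.mul (.c Da) sA) (nR - (2 * t.1 + 3 * t.2.1))))
      (.mul (.mul (.pow (p2E B) t.2.2.1) (.pow (p3E B) t.2.2.2.1))
        (.pow (.mul (.c Db) sB) (mR - (2 * t.2.2.1 + 3 * t.2.2.2.1))))))

/-- The polynomial whose nonnegativity gives the merge inequality on the two triangles. -/
def mkF (Ta Tb : Trg) (L : List (ℕ × ℕ × ℤ)) (e : ℕ) (R : List (ℕ × ℕ × ℕ × ℕ × ℤ)) (nR mR : ℕ) : Ex :=
  let Da : Int := Ta.den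
  let Db : Int := Tb.den
  let A := Ta.exA
  let B := Tb.exB
  let N0 := nE Da Db A B
  let N1 := nE Da Db A B.r1
  let N2 := nE Da Db A B.r2
  let C0 := cE Da Db A B
  let C1 := cE Da Db A B.r1
  let C2 := cE Da Db A B.r2
  let T0 := tE L e (p2E C0) (p3E C0) N0
  let T1 := tE L e (p2E C1) (p3E C1) N1
  let T2 := tE L e (p2E C2) (p3E C2) N2
  .sub (.mul (.mul (.c (3 * (Da * Db))) (.pow (.mul (.mul N0 N1) N2) e)) (rE R nR mR Da Db A B))
    (.mul (.mul (.c (Da ^ nR * Db ^ mR)) (.mul (.pow sA (nR - 1)) (.pow sB (mR - 1))))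
      (.add (.add (.mul (.pow (.mul N1 N2) e) T0) (.mul (.pow (.mul N0 N2) e) T1))
        (.mul (.pow (.mul N0 N1) e) T2)))

/-! ### Values -/

section values

variable (r : Fin 6 → ℝ)

/-- The values of three expressions. -/
noncomputable def E3.val (C : E3) : Tp := ⟨C.x.val r, C.y.val r, C.z.val r⟩

lemma val_sE (A B : E3) : (sE A B).val r = sF (A.val r) (B.val r) := by
  simp only [sE, Ex.val, sF, E3.val]

lemma val_p2E (C : E3) : (p2E C).val r = p2T (C.val r) := by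
  simp only [p2E, Ex.val, p2T, E3.val]

lemma val_p3E (C : E3) : (p3E C).val r = p3T (C.val r) := by
  simp only [p3E, Ex.val, p3T, E3.val]

lemma r1_val (B : E3) : B.r1.val r = (B.val r).r1 := rfl
lemma r2_val (B : E3) : B.r2.val r = (B.val r).r2 := rfl

end values

lemma scale_sF (s t : ℝ) (a b : Tp) : sF (scale s a) (scale t b) = s * t * sF a b := by
  simp only [sF, scale]
  ring

lemma p2T_scale' (s : ℝ) (a : Tp) : p2T (scale s a) = s ^ 2 * p2T a := by
  simp only [p2T, scale]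
  ring

lemma p3T_scale' (s : ℝ) (a : Tp) : p3T (scale s a) = s ^ 3 * p3T a := by
  simp only [p3T, scale]
  ring

lemma r1_scale (s : ℝ) (a : Tp) : (scale s a).r1 = scale s a.r1 := rfl
lemma r2_scale (s : ℝ) (a : Tp) : (scale s a).r2 = scale s a.r2 := rfl

section point

variable {r : Fin 6 → ℝ} {Da Db : ℝ}

/-- The values at a normalized point. -/
structure Pt (r : Fin 6 → ℝ) (Ta Tb : Trg) (a b : Tp) : Prop where
  sa : r 0 + r 1 + r 2 = 1
  sb : r 3 + r 4 + r 5 = 1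
  va : Ta.exA.val r = scale Ta.den a
  vb : Tb.exB.val r = scale Tb.den b

lemma val_sA (r : Fin 6 → ℝ) : sA.val r = r 0 + r 1 + r 2 := by simp only [sA, Ex.val]
lemma val_sB (r : Fin 6 → ℝ) : sB.val r = r 3 + r 4 + r 5 := by simp only [sB, Ex.val]

lemma val_nE {a b : Tp} {A B : E3} (hS : sA.val r = 1) (hT : sB.val r = 1)
    (hA : A.val r = scale Da a) (hB : B.val r = scale Db b) (iA iB : ℤ) (h1 : (iA : ℝ) = Da)
    (h2 : (iB : ℝ) = Db) :
    (nE iA iB A B).val r = Da * Db * (1 + 3 * sF a b) := by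
  simp only [nE, Ex.val, val_sE, hA, hB, scale_sF, hS, hT]
  push_cast
  rw [h1, h2]
  ring

lemma val_cE {a b : Tp} {A B : E3} (hS : sA.val r = 1) (hT : sB.val r = 1)
    (hA : A.val r = scale Da a) (hB : B.val r = scale Db b) (iA iB : ℤ) (h1 : (iA : ℝ) = Da)
    (h2 : (iB : ℝ) = Db) :
    (cE iA iB A B).val r = scale (Da * Db) (cF a b) := by
  have hs : (sE A B).val r = Da * Db * sF a b := by
    rw [val_sE, hA, hB, scale_sF]
  have hx : A.x.val r = Da * a.x := congrArg Tp.x hA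
  have hy : A.y.val r = Da * a.y := congrArg Tp.y hA
  have hz : A.z.val r = Da * a.z := congrArg Tp.z hA
  have kx : B.x.val r = Db * b.x := congrArg Tp.x hB
  have ky : B.y.val r = Db * b.y := congrArg Tp.y hB
  have kz : B.z.val r = Db * b.z := congrArg Tp.z hB
  apply Tp.ext
  · simp only [cE, E3.val, cE1, Ex.val, hs, hx, kx, hS, hT, scale, cF]
    push_cast
    rw [h1, h2]
    ring
  · simp only [cE, E3.val, cE1, Ex.val, hs, hy, ky, hS, hT, scale, cF]
    push_cast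
    rw [h1, h2]
    ring
  · simp only [cE, E3.val, cE1, Ex.val, hs, hz, kz, hS, hT, scale, cF]
    push_cast
    rw [h1, h2]
    ring

lemma val_sumE (l : List Ex) (hl : l ≠ []) : (sumE l).val r = (l.map (Ex.val r)).sum := by
  induction l with
  | nil => exact absurd rfl hl
  | cons x l ih =>
    cases l with
    | nil => simp [sumE]
    | cons y l =>
      have := ih (by simp)
      simp only [sumE, Ex.val, this, List.map_cons, List.sum_cons]

lemma p2T_wF (a b : Tp) : p2T (wF a b) = p2T (cF a b) / (1 + 3 * sF a b) ^ 2 := by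
  simp only [p2T, wF, div_pow]
  rw [add_div, add_div]

lemma p3T_wF (a b : Tp) : p3T (wF a b) = p3T (cF a b) / (1 + 3 * sF a b) ^ 3 := by
  simp only [p3T, wF, div_pow]
  rw [add_div, add_div]

lemma term_id (r D M X Y : ℝ) (hM : M ≠ 0) (i j f : ℕ) :
    r * ((D ^ 2 * X) ^ i * (D ^ 3 * Y) ^ j * (D * M) ^ f) =
      (D * M) ^ f * (D ^ 2 * M ^ 2) ^ i * (D ^ 3 * M ^ 3) ^ j * (r * ((X / M ^ 2) ^ i * (Y / M ^ 3) ^ j)) := by
  have a1 : (D ^ 2 * M ^ 2) ^ i * (X / M ^ 2) ^ i = (D ^ 2 * X) ^ i := by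
    rw [← mul_pow]; congr 1; field_simp
  have a2 : (D ^ 3 * M ^ 3) ^ j * (Y / M ^ 3) ^ j = (D ^ 3 * Y) ^ j := by
    rw [← mul_pow]; congr 1; field_simp
  rw [← a1, ← a2]
  ring

/-- The value of the terms for one rotation. -/
lemma val_tE {L : List (ℕ × ℕ × ℤ)} (hne : L ≠ []) {e : ℕ} (hL : ∀ t ∈ L, 2 * t.1 + 3 * t.2.1 ≤ e + 1)
    {P2 P3 N : Ex} {a b : Tp} {D : ℝ} (hD : D ≠ 0) (hN : 0 < 1 + 3 * sF a b)
    (h2 : P2.val r = D ^ 2 * p2T (cF a b)) (h3 : P3.val r = D ^ 3 * p3T (cF a b))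
    (hNv : N.val r = D * (1 + 3 * sF a b)) :
    (tE L e P2 P3 N).val r = (D * (1 + 3 * sF a b)) ^ (e + 1) * potL L (wF a b) := by
  rw [tE, val_sumE _ (by simpa using hne), potL, List.map_map, ← List.sum_map_mul_left]
  apply congrArg
  apply List.map_congr_left
  intro t ht
  simp only [Function.comp, Ex.val, h2, h3, hNv, p2T_wF, p3T_wF]
  have hd := hL t ht
  set M := 1 + 3 * sF a b with hM
  have hMne : M ≠ 0 := ne_of_gt hN
  set d := 2 * t.1 + 3 * t.2.1 with hdd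
  have e1 : (D * M) ^ (e + 1) = (D * M) ^ (e + 1 - d) * (D ^ 2 * M ^ 2) ^ t.1 * (D ^ 3 * M ^ 3) ^ t.2.1 := by
    have : e + 1 = (e + 1 - d) + 2 * t.1 + 3 * t.2.1 := by omega
    conv_lhs => rw [this]
    rw [pow_add, pow_add, pow_mul, pow_mul, mul_pow D M 2, mul_pow D M 3]
  rw [e1]
  exact term_id _ _ _ _ _ hMne _ _ _

/-- The value of the right side. -/
lemma val_rE {R : List (ℕ × ℕ × ℕ × ℕ × ℤ)} (hne : R ≠ []) {nR mR : ℕ}
    (hR : ∀ t ∈ R, 2 * t.1 + 3 * t.2.1 ≤ nR ∧ 2 * t.2.2.1 + 3 * t.2.2.2.1 ≤ mR)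
    {A B : E3} {a b : Tp} (iA iB : ℤ) (h1 : (iA : ℝ) = Da) (h2 : (iB : ℝ) = Db)
    (hS : sA.val r = 1) (hT : sB.val r = 1) (hA : A.val r = scale Da a) (hB : B.val r = scale Db b) :
    (rE R nR mR iA iB A B).val r = Da ^ nR * Db ^ mR * rhsL R a b := by
  rw [rE, val_sumE _ (by simpa using hne), rhsL, List.map_map, ← List.sum_map_mul_left]
  apply congrArg
  apply List.map_congr_left
  intro t ht
  simp only [Function.comp, Ex.val, val_p2E, val_p3E, hA, hB, p2T_scale', p3T_scale', hS, hT]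
  obtain ⟨b1, b2⟩ := hR t ht
  have e1 : Da ^ nR = Da ^ (nR - (2 * t.1 + 3 * t.2.1)) * (Da ^ 2) ^ t.1 * (Da ^ 3) ^ t.2.1 := by
    have : nR = (nR - (2 * t.1 + 3 * t.2.1)) + 2 * t.1 + 3 * t.2.1 := by omega
    conv_lhs => rw [this]
    rw [pow_add, pow_add, pow_mul, pow_mul]
  have e2 : Db ^ mR = Db ^ (mR - (2 * t.2.2.1 + 3 * t.2.2.2.1)) * (Db ^ 2) ^ t.2.2.1 * (Db ^ 3) ^ t.2.2.2.1 := by
    have : mR = (mR - (2 * t.2.2.1 + 3 * t.2.2.2.1)) + 2 * t.2.2.1 + 3 * t.2.2.2.1 := by omega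
    conv_lhs => rw [this]
    rw [pow_add, pow_add, pow_mul, pow_mul]
  rw [e1, e2]
  push_cast
  rw [h1, h2, mul_pow, mul_pow, mul_pow, mul_pow]
  simp only [mul_one]
  ring

end point

/-- The sum over the three rotations. -/
noncomputable def cyc (L : List (ℕ × ℕ × ℤ)) (a b : Tp) : ℝ :=
  ((1 + 3 * sF a b) * potL L (wF a b) + (1 + 3 * sF a b.r1) * potL L (wF a b.r1) +
    (1 + 3 * sF a b.r2) * potL L (wF a b.r2)) / 3

lemma alg_final (Da Db N0 N1 N2 P0 P1 P2 Rh : ℝ) (e nR mR : ℕ) (pa : 0 < Da) (pb : 0 < Db)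
    (h0 : 0 < N0) (h1 : 0 < N1) (h2 : 0 < N2)
    (key : 0 ≤ 3 * (Da * Db) * (Da * Db * N0 * (Da * Db * N1) * (Da * Db * N2)) ^ e *
        (Da ^ nR * Db ^ mR * Rh) -
      Da ^ nR * Db ^ mR * ((Da * Db * N1 * (Da * Db * N2)) ^ e * ((Da * Db * N0) ^ (e + 1) * P0) +
        (Da * Db * N0 * (Da * Db * N2)) ^ e * ((Da * Db * N1) ^ (e + 1) * P1) +
        (Da * Db * N0 * (Da * Db * N1)) ^ e * ((Da * Db * N2) ^ (e + 1) * P2))) :
    (N0 * P0 + N1 * P1 + N2 * P2) / 3 ≤ Rh := by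
  set X := Da * Db * N0 with hX
  set Y := Da * Db * N1 with hY
  set Z := Da * Db * N2 with hZ
  have pX : 0 < X := by positivity
  have pY : 0 < Y := by positivity
  have pZ : 0 < Z := by positivity
  have e0 : (Y * Z) ^ e * (X ^ (e + 1) * P0) = (X * Y * Z) ^ e * (X * P0) := by
    rw [pow_succ, mul_pow, mul_pow, mul_pow]; ring
  have e1 : (X * Z) ^ e * (Y ^ (e + 1) * P1) = (X * Y * Z) ^ e * (Y * P1) := by
    rw [pow_succ, mul_pow, mul_pow, mul_pow]; ring
  have e2 : (X * Y) ^ e * (Z ^ (e + 1) * P2) = (X * Y * Z) ^ e * (Z * P2) := by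
    rw [pow_succ, mul_pow, mul_pow, mul_pow]; ring
  rw [e0, e1, e2] at key
  have pE : 0 < Da ^ nR * Db ^ mR * (Da * Db) * (X * Y * Z) ^ e := by positivity
  have key2 : 0 ≤ (Da ^ nR * Db ^ mR * (Da * Db) * (X * Y * Z) ^ e) *
      (3 * Rh - (N0 * P0 + N1 * P1 + N2 * P2)) := by
    calc 0 ≤ _ := key
      _ = _ := by rw [hX, hY, hZ]; ring
  have := nonneg_of_mul_nonneg_right key2 pE
  linarith

/-- The polynomial check gives the inequality on the pair of triangles. -/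
theorem cyc_le_of_check {W n m : ℕ} {Ta Tb : Trg} {L : List (ℕ × ℕ × ℤ)} {e : ℕ}
    {R : List (ℕ × ℕ × ℕ × ℕ × ℤ)} {nR mR : ℕ} (hc : check W n m (mkF Ta Tb L e R nR mR) = true)
    (hLne : L ≠ []) (hRne : R ≠ [])
    (hL : ∀ t ∈ L, 2 * t.1 + 3 * t.2.1 ≤ e + 1)
    (hR : ∀ t ∈ R, 2 * t.1 + 3 * t.2.1 ≤ nR ∧ 2 * t.2.2.1 + 3 * t.2.2.2.1 ≤ mR)
    (hDa : 0 < Ta.den) (hDb : 0 < Tb.den)
    {r : Fin 6 → ℝ} (hr : ∀ i, 0 ≤ r i) {a b : Tp} (hP : Pt r Ta Tb a b)
    (hN0 : 0 < 1 + 3 * sF a b) (hN1 : 0 < 1 + 3 * sF a b.r1) (hN2 : 0 < 1 + 3 * sF a b.r2) :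
    cyc L a b ≤ rhsL R a b := by
  have key := check_val hc r hr
  set Da : ℝ := (Ta.den : ℝ) with hDa'
  set Db : ℝ := (Tb.den : ℝ) with hDb'
  have pa : 0 < Da := by rw [hDa']; exact_mod_cast hDa
  have pb : 0 < Db := by rw [hDb']; exact_mod_cast hDb
  have hS : sA.val r = 1 := by rw [val_sA]; exact hP.sa
  have hT : sB.val r = 1 := by rw [val_sB]; exact hP.sb
  have hA : Ta.exA.val r = scale Da a := hP.va
  have hB : Tb.exB.val r = scale Db b := hP.vb
  have hB1 : Tb.exB.r1.val r = scale Db b.r1 := by rw [r1_val, hB, r1_scale]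
  have hB2 : Tb.exB.r2.val r = scale Db b.r2 := by rw [r2_val, hB, r2_scale]
  have i1 : (((Ta.den : ℕ) : ℤ) : ℝ) = Da := by rw [hDa']; push_cast; rfl
  have i2 : (((Tb.den : ℕ) : ℤ) : ℝ) = Db := by rw [hDb']; push_cast; rfl
  set D := Da * Db with hD
  have pD : 0 < D := mul_pos pa pb
  have n0 := val_nE hS hT hA hB _ _ i1 i2
  have n1 := val_nE hS hT hA hB1 _ _ i1 i2
  have n2 := val_nE hS hT hA hB2 _ _ i1 i2
  have c0 := val_cE hS hT hA hB _ _ i1 i2
  have c1 := val_cE hS hT hA hB1 _ _ i1 i2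
  have c2 := val_cE hS hT hA hB2 _ _ i1 i2
  have t0 := val_tE (r := r) hLne hL (P2 := p2E (cE Ta.den Tb.den Ta.exA Tb.exB))
    (P3 := p3E (cE Ta.den Tb.den Ta.exA Tb.exB)) (N := nE Ta.den Tb.den Ta.exA Tb.exB)
    (a := a) (b := b) (D := D) (ne_of_gt pD) hN0
    (by rw [val_p2E, c0, p2T_scale']) (by rw [val_p3E, c0, p3T_scale']) n0
  have t1 := val_tE (r := r) hLne hL (P2 := p2E (cE Ta.den Tb.den Ta.exA Tb.exB.r1))
    (P3 := p3E (cE Ta.den Tb.den Ta.exA Tb.exB.r1)) (N := nE Ta.den Tb.den Ta.exA Tb.exB.r1)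
    (a := a) (b := b.r1) (D := D) (ne_of_gt pD) hN1
    (by rw [val_p2E, c1, p2T_scale']) (by rw [val_p3E, c1, p3T_scale']) n1
  have t2 := val_tE (r := r) hLne hL (P2 := p2E (cE Ta.den Tb.den Ta.exA Tb.exB.r2))
    (P3 := p3E (cE Ta.den Tb.den Ta.exA Tb.exB.r2)) (N := nE Ta.den Tb.den Ta.exA Tb.exB.r2)
    (a := a) (b := b.r2) (D := D) (ne_of_gt pD) hN2
    (by rw [val_p2E, c2, p2T_scale']) (by rw [val_p3E, c2, p3T_scale']) n2
  have rr := val_rE (r := r) hRne hR _ _ i1 i2 hS hT hA hB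
  simp only [mkF, Ex.val, hS, hT, n0, n1, n2, t0, t1, t2, rr, one_pow, mul_one] at key
  push_cast at key
  simp only [← hDa', ← hDb', hD] at key
  exact alg_final _ _ _ _ _ _ _ _ _ e nR mR pa pb hN0 hN1 hN2 key

end Vale.Agent.Lib.P154K
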