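import Vale.Agent.Lib.P154K.Cham

/-!
# The invariant

`p3T` of the merge of `a` and `b`, averaged over the rearrangements of `b`, is at least
`p3T a + (1 - 3/2 p2T a) ^ 2 p3T b`, for all `a` and `b` on the simplex.
-/

namespace Vale.Agent.Lib.P154K

open Vale.Agent.Lib.P154 Vale.Agent.Lib.P154GW

/-- The list of the invariant. -/
def invL : List (ℕ × ℕ × ℤ) := [(0, 1, -4)]

/-- The right side of the invariant. -/
def invR : List (ℕ × ℕ × ℕ × ℕ × ℤ) :=
  [(0, 1, 0, 0, -4), (0, 0, 0, 1, -4), (1, 0, 0, 1, 12), (2, 0, 0, 1, -9)]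

theorem inv_checkP : check 120 10 9 (mkF (chamber 1 1) (chamber 1 1) invL 2 invR 4 3) = true := by
  decide +kernel

theorem inv_checkM : check 120 10 9 (mkF (chamber 1 1) (chamberR 1 1) invL 2 invR 4 3) = true := by
  decide +kernel

lemma potL_inv (c : Tp) : potL invL c = -4 * p3T c := by
  simp [potL, invL]

lemma rhsL_inv (a b : Tp) :
    rhsL invR a b = -4 * (p3T a + (1 - 3 / 2 * p2T a) ^ 2 * p3T b) := by
  simp [rhsL, invR]
  ring

/-- **The invariant inequality.** -/
theorem inv_ineq {lb : ℝ} (hlb0 : 0 ≤ lb) (hlb : lb < 1) (a b : Tp) (ha : InSx 1 a) (hb : InSx lb b) :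
    p3T a + (1 - 3 / 2 * p2T a) ^ 2 * p3T b ≤
      avg6 (fun b' => (1 + 3 * sF a b') * p3T (wF a b')) b := by
  have key := avg6_le_all (L := invL) (R := invR) (p := 1) (q := 1) (by norm_num) (by norm_num)
    inv_checkP inv_checkM (by simp [invL]) (by simp [invR])
    (by
      intro t ht
      simp only [invL, List.mem_singleton] at ht
      subst ht
      norm_num)
    (by
      intro t ht
      simp only [invR, List.mem_cons, List.not_mem_nil, or_false] at ht
      rcases ht with rfl | rfl | rfl | rfl <;> norm_num)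
    hlb0 hlb (by push_cast; linarith) a b ha hb
  rw [rhsL_inv] at key
  simp only [avg6, potL_inv] at key ⊢
  linarith

end Vale.Agent.Lib.P154K
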