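import Vale.Agent.Lib.P154K.Pot

/-!
# The potential for `lam ≤ 7/10`
-/

namespace Vale.Agent.Lib.P154K

open Vale.Agent.Lib.P154 Vale.Agent.Lib.P154GW

namespace P710

/-- The terms of the potential. -/
def Lq : List (ℕ × ℕ × ℤ) := [(1, 0, 10000), (2, 0, 2443), (1, 1, -17859), (0, 2, 36719)]

/-- The terms of the right side. -/
def Rq : List (ℕ × ℕ × ℕ × ℕ × ℤ) :=
  [(1, 0, 0, 0, 10000), (0, 0, 1, 0, 10000), (2, 0, 0, 0, 2443), (0, 0, 2, 0, 2443), (1, 1, 0, 0, -17859), (0, 0, 1, 1, -17859), (0, 2, 0, 0, 36719), (0, 0, 0, 2, 36719), (1, 0, 1, 0, -80), (0, 1, 1, 0, -44162), (1, 0, 0, 1, -75282), (0, 1, 0, 1, 224724), (2, 0, 0, 1, 112923), (1, 1, 0, 1, -338769)]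

theorem checkP : check 340 21 21 (mkF (chamber 1 1) (chamber 7 10) Lq 5 Rq 6 6) = true := by
  decide +kernel

theorem checkM : check 340 21 21 (mkF (chamber 1 1) (chamberR 7 10) Lq 5 Rq 6 6) = true := by
  decide +kernel

/-- The potential. -/
def Pq : Pot := ⟨2443, -17859, 36719⟩

lemma potL_eq (c : Tp) : potL Lq c = ((10000 : ℕ) : ℝ) * psiT 10000 Pq c := by
  simp only [potL, Lq, List.map_cons, List.map_nil, List.sum_cons, List.sum_nil, psiT, Pq, p2T, p3T]
  norm_num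
  ring

lemma rhsL_eq (a b : Tp) : rhsL Rq a b = ((10000 : ℕ) : ℝ) * (psiT 10000 Pq a + psiT 10000 Pq b -
    (1 / 125) * (p2T a * p2T b) - ((22081 / 5000) * p2T b) * p3T a -
    Hfn (12547 / 2500) a * p3T b - (561 / 5000) * (p3T a * p3T b)) := by
  simp only [rhsL, Rq, List.map_cons, List.map_nil, List.sum_cons, List.sum_nil, psiT, Pq, Hfn, p2T, p3T]
  norm_num
  ring

/-- Nonreconstruction for `lam ≤ 7/10`. -/
theorem tendsto {d lam : ℝ} (hd0 : 0 < d) (hl0 : 0 ≤ lam) (hl : lam ≤ ((7 : ℕ) : ℝ) / ((10 : ℕ) : ℝ))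
    (hd : d * lam ^ 2 ≤ 1) :
    Filter.Tendsto (advantage (poisson d) 3 lam) Filter.atTop (nhds 0) := by
  refine poisson_of_checks (den := 10000) (P := Pq) (L := Lq) (R := Rq) (g0 := 22081 / 5000)
    (h0' := 12547 / 2500) (κ := 561 / 5000) (t := 1 / 125) (by norm_num)
    (by norm_num) (by norm_num) checkP checkM (by simp [Lq]) (by simp [Rq]) ?_ ?_ potL_eq rhsL_eq
    (by norm_num) (by norm_num) (by norm_num) (by norm_num) (by norm_num [Pq]) (by norm_num [Pq]) (by norm_num [Pq])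
    (by norm_num [Pq]) (by norm_num [Pq, abs_le]) (by norm_num [Pq]) hd0 hl0 hl hd
  · intro t ht
    simp only [Lq, List.mem_cons, List.not_mem_nil, or_false] at ht
    repeat' (rcases ht with rfl | ht)
    all_goals norm_num
  · intro t ht
    simp only [Rq, List.mem_cons, List.not_mem_nil, or_false] at ht
    repeat' (rcases ht with rfl | ht)
    all_goals norm_num

end P710

end Vale.Agent.Lib.P154K
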